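import Vale.Agent.P085.Trac

namespace Vale.Agent.Results.P085.Generator

/-- Every von Neumann algebra acting on a separable Hilbert space is singly generated. -/
theorem result {H : Type*} [NormedAddCommGroup H] [InnerProductSpace ℂ H] [CompleteSpace H]
    [TopologicalSpace.SeparableSpace H] (M : VonNeumannAlgebra H) :
    ∃ x : H →L[ℂ] H, x ∈ M ∧
      (∀ N : VonNeumannAlgebra H, x ∈ N → ∀ y : H →L[ℂ] H, y ∈ M → y ∈ N) ∧
      (M : Set (H →L[ℂ] H)) = Set.centralizer (Set.centralizer {x, star x}) := by
  obtain ⟨x, hx, h⟩ := Vale.Agent.P085.single_generator M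
  refine ⟨x, hx, h, Set.Subset.antisymm (fun y hy => ?_) ?_⟩
  · let N : VonNeumannAlgebra H :=
      { toStarSubalgebra := StarSubalgebra.centralizer ℂ {x}
        centralizer_centralizer' := by simp }
    have e : (N : Set (H →L[ℂ] H)) = Set.centralizer {x, star x} := by
      ext z
      change z ∈ StarSubalgebra.centralizer ℂ {x} ↔ _
      simp [StarSubalgebra.mem_centralizer_iff, Set.mem_centralizer_iff]
    have := h N.commutant (VonNeumannAlgebra.mem_commutant_iff.2 fun g hg => by
      have hg' : g ∈ (N : Set (H →L[ℂ] H)) := hg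
      rw [e] at hg'
      exact (hg' x (by simp)).symm) y hy
    rw [← e, ← N.coe_commutant]
    exact this
  · rw [← M.centralizer_centralizer]
    refine Set.centralizer_subset (Set.centralizer_subset ?_)
    rintro z (rfl | rfl)
    · exact hx
    · exact star_mem hx

end Vale.Agent.Results.P085.Generator
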